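import Mathlib

set_option linter.all false

namespace Vale.Agent.P246.R2.H311

open MonoidAlgebra

/-- The dimension does not go down in an integral extension. -/
theorem dim_le_of_integral (A B : Type) [CommRing A] [CommRing B] [Algebra A B]
    [Algebra.IsIntegral A B] (hinj : Function.Injective (algebraMap A B)) :
    ringKrullDim A ≤ ringKrullDim B := by
  haveI : FaithfulSMul A B := (faithfulSMul_iff_algebraMap_injective A B).2 hinj
  refine iSup_le fun l => ?_
  obtain ⟨⟨P, hP⟩⟩ := Ideal.nonempty_primesOver (R := A) (S := B) l.head.asIdeal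
  haveI := hP.1
  haveI := hP.2
  obtain ⟨L, hL, -⟩ := Ideal.exists_ltSeries_of_hasGoingUp l P
  rw [← hL]
  exact Order.LTSeries.length_le_krullDim L

/-- A localisation of a polynomial ring over the integers. -/
theorem dim_away (h : ℕ) (x : MvPolynomial (Fin h) ℤ) :
    ringKrullDim (Localization.Away x) ≤ ((h + 1 : ℕ) : WithBot ℕ∞) := by
  rw [ringKrullDim_le_iff_height_le]
  intro p hp
  have h1 := IsLocalization.height_under (R := MvPolynomial (Fin h) ℤ) (Submonoid.powers x) p
  rw [← h1]
  haveI : (p.under (MvPolynomial (Fin h) ℤ)).IsPrime := inferInstance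
  refine le_trans Ideal.height_le_ringKrullDim_of_isPrime ?_
  rw [MvPolynomial.ringKrullDim_of_isNoetherianRing,
    IsPrincipalIdealRing.ringKrullDim_eq_one ℤ Int.not_isField, Nat.card_eq_fintype_card,
    Fintype.card_fin]
  push_cast
  rw [add_comm]

/-- The dimension of the Laurent polynomial ring. -/
theorem dim_laurent (h : ℕ) :
    ringKrullDim (MonoidAlgebra ℤ (Multiplicative (Fin h → ℤ))) ≤ ((h + 1 : ℕ) : WithBot ℕ∞) := by
  classical
  let e : Fin h → Multiplicative (Fin h → ℤ) := fun i => Multiplicative.ofAdd (Pi.single i 1)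
  let g : MvPolynomial (Fin h) ℤ →+* MonoidAlgebra ℤ (Multiplicative (Fin h → ℤ)) :=
    MvPolynomial.eval₂Hom (Int.castRingHom _) fun i => MonoidAlgebra.of ℤ _ (e i)
  let x : MvPolynomial (Fin h) ℤ := ∏ i, MvPolynomial.X i
  have hg : ∀ i, g (MvPolynomial.X i) = MonoidAlgebra.of ℤ _ (e i) := fun i =>
    MvPolynomial.eval₂Hom_X' _ _ _
  have hx : IsUnit (g x) := by
    rw [map_prod]
    refine (Finset.univ.prod_induction _ (fun y => IsUnit y) (fun a b => IsUnit.mul) isUnit_one ?_)
    intro i _
    rw [hg]
    exact (Group.isUnit (e i)).map (MonoidAlgebra.of ℤ _)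
  let f : Localization.Away x →+* MonoidAlgebra ℤ (Multiplicative (Fin h → ℤ)) :=
    IsLocalization.Away.lift x hx
  have hf : ∀ y, f (algebraMap _ _ y) = g y := fun y => IsLocalization.Away.lift_eq x hx y
  have hmem : ∀ y : MonoidAlgebra ℤ (Multiplicative (Fin h → ℤ)), y ∈ f.range := by
    have hpos : ∀ i, MonoidAlgebra.of ℤ _ (e i) ∈ f.range := fun i => ⟨_, (hf _).trans (hg i)⟩
    have hneg : ∀ i, MonoidAlgebra.of ℤ _ (e i)⁻¹ ∈ f.range := by
      intro i
      obtain ⟨y, hy⟩ : MvPolynomial.X i ∣ x := Finset.dvd_prod_of_mem _ (Finset.mem_univ i)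
      have hu : IsUnit (algebraMap (MvPolynomial (Fin h) ℤ) (Localization.Away x)
          (MvPolynomial.X i)) := by
        have h1 : IsUnit (algebraMap (MvPolynomial (Fin h) ℤ) (Localization.Away x) x) :=
          IsLocalization.Away.algebraMap_isUnit x
        have h2 : algebraMap (MvPolynomial (Fin h) ℤ) (Localization.Away x) x =
            algebraMap (MvPolynomial (Fin h) ℤ) (Localization.Away x) (MvPolynomial.X i) *
            algebraMap (MvPolynomial (Fin h) ℤ) (Localization.Away x) y := by
          rw [← map_mul, ← hy]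
        rw [h2] at h1
        exact isUnit_of_mul_isUnit_left h1
      obtain ⟨u, hu⟩ := hu
      refine ⟨(u⁻¹ : (Localization.Away x)ˣ), ?_⟩
      have h2 : f u * f (u⁻¹ : (Localization.Away x)ˣ) = 1 := by
        rw [← map_mul, Units.mul_inv, map_one]
      rw [hu, hf, hg] at h2
      have h3 : MonoidAlgebra.of ℤ _ (e i)⁻¹ * MonoidAlgebra.of ℤ _ (e i) =
          (1 : MonoidAlgebra ℤ (Multiplicative (Fin h → ℤ))) := by
        rw [← map_mul, inv_mul_cancel, map_one]
      calc f (u⁻¹ : (Localization.Away x)ˣ)
          = (MonoidAlgebra.of ℤ _ (e i)⁻¹ * MonoidAlgebra.of ℤ _ (e i)) *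
            f (u⁻¹ : (Localization.Away x)ˣ) := by rw [h3, one_mul]
        _ = MonoidAlgebra.of ℤ _ (e i)⁻¹ := by rw [mul_assoc, h2, mul_one]
    -- the elements of the group whose basis vector is in the range
    let S : Subgroup (Multiplicative (Fin h → ℤ)) :=
      { carrier := {k | MonoidAlgebra.of ℤ _ k ∈ f.range ∧ MonoidAlgebra.of ℤ _ k⁻¹ ∈ f.range}
        one_mem' := by
          constructor
          · rw [map_one]; exact one_mem _
          · rw [inv_one, map_one]; exact one_mem _
        mul_mem' := by
          rintro a b ⟨ha, ha'⟩ ⟨hb, hb'⟩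
          constructor
          · rw [map_mul]; exact mul_mem ha hb
          · rw [mul_inv, map_mul]; exact mul_mem ha' hb'
        inv_mem' := by
          rintro a ⟨ha, ha'⟩
          exact ⟨ha', by rw [inv_inv]; exact ha⟩ }
    have hS : ∀ k, k ∈ S := by
      intro k
      have h1 : k = ∏ i, e i ^ (Multiplicative.toAdd k i) := by
        apply Multiplicative.toAdd.injective
        rw [toAdd_prod]
        simp only [toAdd_zpow, e, toAdd_ofAdd]
        funext j
        simp [Finset.sum_apply, Pi.single_apply]
      rw [h1]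
      refine Subgroup.prod_mem _ fun i _ => Subgroup.zpow_mem _ ?_ _
      exact ⟨hpos i, hneg i⟩
    intro y
    induction y using MonoidAlgebra.induction_linear with
    | zero => exact zero_mem _
    | add a b ha hb => exact add_mem ha hb
    | single k r =>
      have h1 : (MonoidAlgebra.single k r : MonoidAlgebra ℤ (Multiplicative (Fin h → ℤ))) =
          r • MonoidAlgebra.of ℤ _ k := by
        rw [MonoidAlgebra.of_apply, MonoidAlgebra.smul_single, smul_eq_mul, mul_one]
      rw [h1]
      exact zsmul_mem (hS k).1 r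
  exact (ringKrullDim_le_of_surjective f fun y => hmem y).trans (dim_away h x)

end Vale.Agent.P246.R2.H311
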