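import Vale.Agent.P246.R2.H311.Dim

set_option linter.all false

namespace Vale.Agent.P246.R2.H311

open MonoidAlgebra

/-- Invariants of a finite group acting on a finitely generated commutative ring. -/
theorem inv_noeth (B : Type) [CommRing B] [Algebra.FiniteType ℤ B] (Q : Type) [Group Q] [Finite Q]
    [MulSemiringAction Q B] : IsNoetherianRing (FixedPoints.subring B Q) ∧
      Module.Finite (FixedPoints.subring B Q) B ∧
      ringKrullDim (FixedPoints.subring B Q) ≤ ringKrullDim B := by
  haveI hinv : Algebra.IsInvariant (FixedPoints.subring B Q) B Q :=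
    ⟨fun b hb => ⟨⟨b, hb⟩, rfl⟩⟩
  haveI hint : Algebra.IsIntegral (FixedPoints.subring B Q) B := Algebra.IsInvariant.isIntegral _ _ Q
  haveI hft : Algebra.FiniteType (FixedPoints.subring B Q) B :=
    Algebra.FiniteType.of_restrictScalars_finiteType ℤ _ B
  have hfin : Module.Finite (FixedPoints.subring B Q) B := Algebra.IsIntegral.finite
  have hA : (⊤ : Subalgebra ℤ (FixedPoints.subring B Q)).FG :=
    fg_of_fg_of_fg ℤ (FixedPoints.subring B Q) B Algebra.FiniteType.out hfin.fg_top
      Subtype.val_injective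
  haveI hft2 : Algebra.FiniteType ℤ (FixedPoints.subring B Q) := ⟨hA⟩
  exact ⟨Algebra.FiniteType.isNoetherianRing ℤ _, hfin, dim_le_of_integral _ _ Subtype.val_injective⟩

/-- The group ring of a group with a commutative normal subgroup (given as `ι : K →* G`) of finite
index is finite over a noetherian subring of its centre, whose dimension is at most the one of
`ℤ[K]` (after helper197). -/
theorem va_aux (G : Type) [Group G] (K : Type) [CommGroup K] (hK : Group.FG K) (ι : K →* G)
    (hι : Function.Injective ι) (φ : G →* MulAut K) (hφ : ∀ g k, ι (φ g k) = g * ι k * g⁻¹)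
    (T : Finset G) (hT : ∀ g, ∃ k, ∃ t ∈ T, g = ι k * t) (d : ℕ)
    (hd : ringKrullDim (MonoidAlgebra ℤ K) ≤ (d : WithBot ℕ∞)) :
    ∃ (A : Type) (_ : CommRing A) (_ : IsNoetherianRing A) (_ : Algebra A (MonoidAlgebra ℤ G)),
      Module.Finite A (MonoidAlgebra ℤ G) ∧ ∀ p : Ideal A, p.IsPrime → p.height ≤ d := by
  classical
  have hφ1 : ∀ k, φ (ι k) = 1 := by
    intro k
    ext k'
    have h := hφ (ι k) k'
    rw [← map_mul, ← map_inv, ← map_mul, mul_comm k k', mul_inv_cancel_right] at h
    exact hι h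
  haveI hQ : Finite φ.range := by
    refine Set.Finite.subset (Finset.finite_toSet (T.image φ)) ?_
    rintro _ ⟨g, rfl⟩
    obtain ⟨k, t, ht, rfl⟩ := hT g
    rw [map_mul, hφ1, one_mul]
    exact Finset.mem_coe.2 (Finset.mem_image_of_mem _ ht)
  letI act : MulSemiringAction φ.range (MonoidAlgebra ℤ K) :=
    MulSemiringAction.compHom (MonoidAlgebra ℤ K)
      ((MonoidAlgebra.domCongrAut (R := ℤ) (A := ℤ) (M := K)).comp φ.range.subtype)
  have hact : ∀ (q : φ.range) (b : MonoidAlgebra ℤ K), q • b = MonoidAlgebra.domCongr ℤ ℤ q.1 b :=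
    fun q b => rfl
  haveI : Monoid.FG K := (Group.fg_iff_monoid_fg).1 hK
  have hft0 := MonoidAlgebra.finiteType_of_fg (R := ℤ) (M := K)
  have e0 : (Ring.toIntAlgebra (MonoidAlgebra ℤ K)) = MonoidAlgebra.algebra :=
    Subsingleton.elim _ _
  have hft : @Algebra.FiniteType ℤ (MonoidAlgebra ℤ K) _ _ (Ring.toIntAlgebra _) := by
    rw [e0]
    exact hft0
  obtain ⟨h1, h2, h3⟩ := @inv_noeth (MonoidAlgebra ℤ K) _ hft φ.range _ _ _
  have h3' : ∀ p : Ideal (FixedPoints.subring (MonoidAlgebra ℤ K) φ.range), p.IsPrime →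
      p.height ≤ d := by
    intro p hp
    have h4 : (p.height : WithBot ℕ∞) ≤ ((d : ℕ) : WithBot ℕ∞) :=
      le_trans Ideal.height_le_ringKrullDim_of_isPrime (h3.trans hd)
    exact_mod_cast h4
  let j : MonoidAlgebra ℤ K →+* MonoidAlgebra ℤ G := MonoidAlgebra.mapDomainRingHom ℤ ι
  have hj : ∀ k r, j (MonoidAlgebra.single k r) = MonoidAlgebra.single (ι k) r := by
    intro k r
    simp [j]
  have hconj : ∀ (g : G) (b : MonoidAlgebra ℤ K),
      MonoidAlgebra.single g (1 : ℤ) * j b = j (MonoidAlgebra.domCongr ℤ ℤ (φ g) b) *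
        MonoidAlgebra.single g (1 : ℤ) := by
    intro g b
    induction b using MonoidAlgebra.induction_linear with
    | zero => simp only [map_zero, mul_zero, zero_mul]
    | add a b ha hb => simp only [map_add, mul_add, add_mul, ha, hb]
    | single k r =>
      rw [MonoidAlgebra.domCongr_single, hj, hj, MonoidAlgebra.single_mul_single,
        MonoidAlgebra.single_mul_single, one_mul, mul_one, hφ, inv_mul_cancel_right]
  let j' : FixedPoints.subring (MonoidAlgebra ℤ K) φ.range →+* MonoidAlgebra ℤ G :=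
    j.comp (Subring.subtype _)
  have hcen : ∀ (a : FixedPoints.subring (MonoidAlgebra ℤ K) φ.range) (x : MonoidAlgebra ℤ G),
      j' a * x = x * j' a := by
    intro a x
    have ha : ∀ g : G, MonoidAlgebra.single g (1 : ℤ) * j' a = j' a * MonoidAlgebra.single g 1 := by
      intro g
      have h := hconj g a.1
      have h' : MonoidAlgebra.domCongr ℤ ℤ (φ g) a.1 = a.1 := a.2 ⟨φ g, g, rfl⟩
      rw [h'] at h
      exact h
    induction x using MonoidAlgebra.induction_linear with
    | zero => simp only [mul_zero, zero_mul]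
    | add x y hx hy => simp only [mul_add, add_mul, hx, hy]
    | single g r =>
      have hr : (MonoidAlgebra.single g r : MonoidAlgebra ℤ G) = r • MonoidAlgebra.single g 1 := by
        rw [MonoidAlgebra.smul_single, smul_eq_mul, mul_one]
      rw [hr, mul_smul_comm, smul_mul_assoc, ha]
  letI alg : Algebra (FixedPoints.subring (MonoidAlgebra ℤ K) φ.range) (MonoidAlgebra ℤ G) :=
    RingHom.toAlgebra' j' hcen
  letI mod : Module (MonoidAlgebra ℤ K) (MonoidAlgebra ℤ G) := Module.compHom _ j
  haveI tow : IsScalarTower (FixedPoints.subring (MonoidAlgebra ℤ K) φ.range) (MonoidAlgebra ℤ K)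
      (MonoidAlgebra ℤ G) := by
    refine ⟨fun a b x => ?_⟩
    change j (a.1 * b) * x = j a.1 * (j b * x)
    rw [map_mul, mul_assoc]
  refine ⟨FixedPoints.subring (MonoidAlgebra ℤ K) φ.range, inferInstance, h1, alg, ?_, h3'⟩
  haveI : Module.Finite (MonoidAlgebra ℤ K) (MonoidAlgebra ℤ G) := by
    refine ⟨⟨T.image (fun t => MonoidAlgebra.single t (1 : ℤ)), ?_⟩⟩
    rw [eq_top_iff]
    rintro x -
    induction x using MonoidAlgebra.induction_linear with
    | zero => exact Submodule.zero_mem _
    | add x y hx hy => exact Submodule.add_mem _ hx hy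
    | single g r =>
      obtain ⟨k, t, ht, rfl⟩ := hT g
      have hs : (MonoidAlgebra.single (ι k * t) r : MonoidAlgebra ℤ G) =
          (MonoidAlgebra.single k r : MonoidAlgebra ℤ K) • MonoidAlgebra.single t (1 : ℤ) := by
        change _ = j (MonoidAlgebra.single k r) * MonoidAlgebra.single t (1 : ℤ)
        rw [hj, MonoidAlgebra.single_mul_single, mul_one]
      rw [hs]
      exact Submodule.smul_mem _ _ (Submodule.subset_span
        (Finset.mem_coe.2 (Finset.mem_image_of_mem _ ht)))
  exact Module.Finite.trans (MonoidAlgebra ℤ K) _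

/-- A group homomorphism into a commutative group which is injective and has all `n`-th powers in
its image: the dimension of the group ring does not go down. -/
theorem dim_sub (K L : Type) [CommGroup K] [CommGroup L] (ι : K →* L)
    (hι : Function.Injective ι) (n : ℕ) (hn : 0 < n) (hpow : ∀ l : L, ∃ k, ι k = l ^ n) :
    ringKrullDim (MonoidAlgebra ℤ K) ≤ ringKrullDim (MonoidAlgebra ℤ L) := by
  classical
  let j : MonoidAlgebra ℤ K →+* MonoidAlgebra ℤ L := MonoidAlgebra.mapDomainRingHom ℤ ι
  letI alg : Algebra (MonoidAlgebra ℤ K) (MonoidAlgebra ℤ L) := j.toAlgebra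
  have hj : ∀ k r, j (MonoidAlgebra.single k r) = MonoidAlgebra.single (ι k) r := by
    intro k r
    simp [j]
  haveI : Algebra.IsIntegral (MonoidAlgebra ℤ K) (MonoidAlgebra ℤ L) := by
    refine ⟨fun x => ?_⟩
    induction x using MonoidAlgebra.induction_linear with
    | zero => exact isIntegral_zero
    | add x y hx hy => exact hx.add hy
    | single l r =>
      obtain ⟨k, hk⟩ := hpow l
      refine ⟨Polynomial.X ^ n - Polynomial.C (MonoidAlgebra.single k (r ^ n)),
        Polynomial.monic_X_pow_sub_C _ hn.ne', ?_⟩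
      rw [Polynomial.eval₂_sub, Polynomial.eval₂_pow, Polynomial.eval₂_X, Polynomial.eval₂_C]
      change _ - j (MonoidAlgebra.single k (r ^ n)) = 0
      rw [hj, hk, MonoidAlgebra.single_pow, sub_self]
  exact dim_le_of_integral _ _ (MonoidAlgebra.mapDomain_injective hι)

/-- ROW V2: group rings of groups with a subgroup `ℤ^h` of finite index. -/
theorem va2 (G : Type) [Group G] (h : ℕ)
    (hN : ∃ N : Subgroup G, N.FiniteIndex ∧ Nonempty (N ≃* Multiplicative (Fin h → ℤ))) :
    ∃ (A : Type) (_ : CommRing A) (_ : IsNoetherianRing A) (_ : Algebra A (MonoidAlgebra ℤ G)),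
      Module.Finite A (MonoidAlgebra ℤ G) ∧ ∀ p : Ideal A, p.IsPrime → p.height ≤ (h + 1 : ℕ) := by
  classical
  obtain ⟨N, hfi, ⟨e⟩⟩ := hN
  haveI : N.FiniteIndex := hfi
  have hab : ∀ a ∈ N, ∀ b ∈ N, a * b = b * a := by
    intro a ha b hb
    have h1 : (⟨a, ha⟩ : N) * ⟨b, hb⟩ = ⟨b, hb⟩ * ⟨a, ha⟩ := by
      apply e.injective
      rw [map_mul, map_mul, mul_comm]
    exact congrArg Subtype.val h1
  have hcom : ∀ a b : N.normalCore, a * b = b * a := fun a b =>
    Subtype.ext (hab a (N.normalCore_le a.2) b (N.normalCore_le b.2))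
  letI cg : CommGroup N.normalCore := { (inferInstance : Group N.normalCore) with mul_comm := hcom }
  haveI : Finite (G ⧸ N.normalCore) := inferInstance
  haveI := Fintype.ofFinite (G ⧸ N.normalCore)
  -- the subgroup inside `ℤ^h`
  let ι : N.normalCore →* Multiplicative (Fin h → ℤ) :=
    e.toMonoidHom.comp (Subgroup.inclusion N.normalCore_le)
  have hι : Function.Injective ι := e.injective.comp (Subgroup.inclusion_injective _)
  have hpow : ∀ l, ∃ k, ι k = l ^ N.normalCore.index := by
    intro l
    have h1 : (e.symm l : G) ^ N.normalCore.index ∈ N.normalCore := Subgroup.pow_index_mem _ _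
    refine ⟨⟨_, h1⟩, ?_⟩
    have h2 : Subgroup.inclusion N.normalCore_le ⟨_, h1⟩ = (e.symm l) ^ N.normalCore.index := by
      apply Subtype.ext
      rfl
    change e (Subgroup.inclusion N.normalCore_le ⟨_, h1⟩) = _
    rw [h2, map_pow, MulEquiv.apply_symm_apply]
  have hdim : ringKrullDim (MonoidAlgebra ℤ N.normalCore) ≤ ((h + 1 : ℕ) : WithBot ℕ∞) :=
    (dim_sub _ _ ι hι _ (Nat.pos_of_ne_zero Subgroup.FiniteIndex.index_ne_zero) hpow).trans
      (dim_laurent h)
  -- finite generation
  have hNfg : Group.FG N := by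
    have : Group.FG (Multiplicative (Fin h → ℤ)) := inferInstance
    exact (Group.fg_iff_monoid_fg).2 ((Monoid.fg_of_surjective e.symm.toMonoidHom
      e.symm.surjective))
  haveI : Group.FG N := hNfg
  have hfg0 : Group.FG (N.normalCore.subgroupOf N) := by
    have : (N.normalCore.subgroupOf N).FiniteIndex := inferInstance
    infer_instance
  have hfg : Group.FG N.normalCore := by
    have e1 := Subgroup.subgroupOfEquivOfLe (N.normalCore_le)
    exact (Group.fg_iff_monoid_fg).2 ((Monoid.fg_of_surjective e1.toMonoidHom e1.surjective))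
  refine va_aux G N.normalCore hfg N.normalCore.subtype Subtype.val_injective MulAut.conjNormal
    (fun g k => MulAut.conjNormal_apply g k)
    (Finset.univ.image (fun q : G ⧸ N.normalCore => q.out)) (fun g => ?_) (h + 1) hdim
  obtain ⟨h, hh⟩ := QuotientGroup.mk_out_eq_mul N.normalCore g
  refine ⟨⟨g * (h : G)⁻¹ * g⁻¹, ?_⟩, (g : G ⧸ N.normalCore).out, ?_, ?_⟩
  · exact (inferInstance : N.normalCore.Normal).conj_mem _ (N.normalCore.inv_mem h.2) g
  · exact Finset.mem_image_of_mem _ (Finset.mem_univ _)
  · rw [hh]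
    change g = g * (h : G)⁻¹ * g⁻¹ * (g * h)
    group

end Vale.Agent.P246.R2.H311
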